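import Vale.Agent.Lib.P183.Main7

/-- The lattice `Par23` (the product of chains `2 × 3` with one extra element strictly between
bottom and top, incomparable to all other elements) is isomorphic to the congruence lattice of a
finite algebra. -/
theorem Vale.Agent.Results.P183.B_par2x3.result :
    Vale.Agent.Lib.P183.Representable Vale.Agent.Lib.P183.Par23 :=
  Vale.Agent.Lib.P183.par23_representable
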